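import Vale.Agent.P267.H338.Riem
import Vale.Agent.P267.H399.Defs
import Mathlib.Geometry.Manifold.MFDeriv.Atlas
import Mathlib.Geometry.Manifold.MFDeriv.SpecificFunctions

/-!
# Quotients of holomorphic functions (helper209)

`y`, `x` holomorphic on the open set `U` of a surface, `x` not locally zero, `‖y‖ ≤ C ‖x‖` locally:
then `y = x k` with `k` holomorphic on `U`.
-/

set_option linter.unusedSectionVars false
set_option linter.unusedVariables false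

open scoped Manifold ContDiff Topology
open Set Filter

noncomputable section

namespace Vale.Agent.P267.H209

open Vale.Agent.P267.FL Vale.Agent.P267.H338

variable {M : Type} [TopologicalSpace M] [ChartedSpace C2 M] [IsManifold 𝓘(ℂ, C2) ω M]

/-- local version -/
theorem quot_local {U : Set M} (hU : IsOpen U) {x y : M → ℂ}
    (hx : MDifferentiableOn 𝓘(ℂ, C2) 𝓘(ℂ) x U) (hy : MDifferentiableOn 𝓘(ℂ, C2) 𝓘(ℂ) y U)
    {p : M} (hp : p ∈ U) (hne : ∃ᶠ q in 𝓝 p, x q ≠ 0) {C : ℝ}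
    (hb : ∀ᶠ q in 𝓝 p, ‖y q‖ ≤ C * ‖x q‖) :
    ∃ V : Set M, IsOpen V ∧ p ∈ V ∧ V ⊆ U ∧ ∃ k : M → ℂ,
      MDifferentiableOn 𝓘(ℂ, C2) 𝓘(ℂ) k V ∧ ∀ q ∈ V, y q = x q * k q := by
  have hM1 : IsManifold 𝓘(ℂ, C2) 1 M := IsManifold.of_le (n := ω) le_top
  obtain ⟨O, hO, hOo, hpO⟩ := eventually_nhds_iff.1 hb
  set e := chartAt C2 p with he
  have hps : p ∈ e.source := mem_chart_source C2 p
  have he1 : e.MDifferentiable 𝓘(ℂ, C2) 𝓘(ℂ, C2) := mdifferentiable_of_mem_atlas (chart_mem_atlas _ _)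
  set S : Set M := U ∩ O ∩ e.source with hS
  have hSo : IsOpen S := (hU.inter hOo).inter e.open_source
  have hpS : p ∈ S := ⟨⟨hp, hpO⟩, hps⟩
  set V : Set C2 := e.target ∩ e.symm ⁻¹' S with hV
  have hVo : IsOpen V := e.isOpen_inter_preimage_symm hSo
  have hpV : e p ∈ V := ⟨e.map_source hps, by
    show e.symm (e p) ∈ S
    rw [e.left_inv hps]; exact hpS⟩
  have hcomp : ∀ {k : M → ℂ}, MDifferentiableOn 𝓘(ℂ, C2) 𝓘(ℂ) k U →
      DifferentiableOn ℂ (fun z => k (e.symm z)) V := by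
    intro k hk z hz
    have h1 : MDifferentiableAt 𝓘(ℂ, C2) 𝓘(ℂ, C2) e.symm z := he1.mdifferentiableAt_symm hz.1
    have h2 : MDifferentiableAt 𝓘(ℂ, C2) 𝓘(ℂ) k (e.symm z) :=
      (hk _ hz.2.1.1).mdifferentiableAt (hU.mem_nhds hz.2.1.1)
    exact (mdifferentiableAt_iff_differentiableAt.1 (h2.comp z h1)).differentiableWithinAt
  have hx' := hcomp hx
  have hy' := hcomp hy
  have hne' : ∃ᶠ z in 𝓝 (e p), x (e.symm z) ≠ 0 := by
    have h1 : Tendsto e (𝓝 p) (𝓝 (e p)) := e.continuousAt hps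
    refine h1.frequently ?_
    refine (hne.and_eventually (e.open_source.mem_nhds hps)).mono ?_
    rintro q ⟨hq, hqs⟩
    rwa [e.left_inv hqs]
  obtain ⟨W, hWo, hpW, hWV, K, hK, hKe⟩ := riemann_extension (E := C2) (F := ℂ) (C := C) hVo hpV
    hx' hne' (u := fun z => y (e.symm z) / x (e.symm z))
    (by
      intro z hz
      have h1 := (hy' z hz.1).mono (inter_subset_left (t := {z | x (e.symm z) ≠ 0}))
      have h2 := (hx' z hz.1).mono (inter_subset_left (t := {z | x (e.symm z) ≠ 0}))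
      simp only [div_eq_mul_inv]
      exact h1.mul (h2.inv hz.2))
    (by
      intro z hz hz0
      rw [norm_div, div_le_iff₀ (norm_pos_iff.2 hz0)]
      exact hO _ hz.2.1.2)
  refine ⟨e.source ∩ e ⁻¹' W, e.isOpen_inter_preimage hWo, ⟨hps, hpW⟩, ?_, fun q => K (e q), ?_, ?_⟩
  · rintro q ⟨hq, hqW⟩
    have := (hWV hqW).2.1.1
    rwa [e.left_inv hq] at this
  · rintro q ⟨hq, hqW⟩
    have h1 : MDifferentiableAt 𝓘(ℂ, C2) 𝓘(ℂ, C2) e q := he1.mdifferentiableAt hq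
    have h2 : DifferentiableAt ℂ K (e q) := hK.differentiableAt (hWo.mem_nhds hqW)
    exact (h2.mdifferentiableAt.comp q h1).mdifferentiableWithinAt
  · rintro q ⟨hq, hqW⟩
    have hqO : q ∈ O := by
      have := (hWV hqW).2.1.2
      rwa [e.left_inv hq] at this
    by_cases h0 : x q = 0
    · have h1 := hO q hqO
      rw [h0, norm_zero, mul_zero] at h1
      rw [h0, zero_mul]
      exact norm_le_zero_iff.1 h1
    · have h1 := hKe (e q) hqW (by rw [e.left_inv hq]; exact h0)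
      rw [e.left_inv hq] at h1
      show y q = x q * K (e q)
      rw [h1]
      field_simp

/-- two functions continuous at `q` which agree where `x ≠ 0` agree at `q` -/
theorem eq_of_frequently {k k' x : M → ℂ} {q : M} (hk : ContinuousAt k q) (hk' : ContinuousAt k' q)
    (hne : ∃ᶠ p in 𝓝 q, x p ≠ 0) (h : ∀ᶠ p in 𝓝 q, x p ≠ 0 → k p = k' p) : k q = k' q := by
  by_contra hn
  have h1 : ∀ᶠ p in 𝓝 q, k p ≠ k' p := by
    have : ContinuousAt (fun p => k p - k' p) q := hk.sub hk'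
    filter_upwards [this.eventually_ne (sub_ne_zero.2 hn)] with p hp
    exact sub_ne_zero.1 hp
  obtain ⟨p, hp, hp1, hp2⟩ := (hne.and_eventually (h1.and h)).exists
  exact hp1 (hp2 hp)

/-- **Quotients**: `y = x k`, `k` holomorphic -/
theorem quot {U : Set M} (hU : IsOpen U) {x y : M → ℂ}
    (hx : MDifferentiableOn 𝓘(ℂ, C2) 𝓘(ℂ) x U) (hy : MDifferentiableOn 𝓘(ℂ, C2) 𝓘(ℂ) y U)
    (hne : ∀ p ∈ U, ∃ᶠ q in 𝓝 p, x q ≠ 0)
    (hb : ∀ p ∈ U, ∃ C : ℝ, ∀ᶠ q in 𝓝 p, ‖y q‖ ≤ C * ‖x q‖) :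
    ∃ k : M → ℂ, MDifferentiableOn 𝓘(ℂ, C2) 𝓘(ℂ) k U ∧ ∀ q ∈ U, y q = x q * k q := by
  have hloc : ∀ p : U, ∃ V : Set M, IsOpen V ∧ (p : M) ∈ V ∧ V ⊆ U ∧ ∃ k : M → ℂ,
      MDifferentiableOn 𝓘(ℂ, C2) 𝓘(ℂ) k V ∧ ∀ q ∈ V, y q = x q * k q := by
    rintro ⟨p, hp⟩
    obtain ⟨C, hC⟩ := hb p hp
    exact quot_local hU hx hy hp (hne p hp) hC
  choose V hVo hpV hVU k hk hke using hloc
  classical
  refine ⟨fun q => if h : q ∈ U then k ⟨q, h⟩ q else 0, ?_, ?_⟩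
  · intro p hp
    have hd : MDifferentiableAt 𝓘(ℂ, C2) 𝓘(ℂ) (k ⟨p, hp⟩) p :=
      (hk ⟨p, hp⟩ p (hpV ⟨p, hp⟩)).mdifferentiableAt ((hVo ⟨p, hp⟩).mem_nhds (hpV ⟨p, hp⟩))
    refine (hd.congr_of_eventuallyEq ?_).mdifferentiableWithinAt
    filter_upwards [(hVo ⟨p, hp⟩).mem_nhds (hpV ⟨p, hp⟩)] with q hq
    have hqU : q ∈ U := hVU _ hq
    rw [dif_pos hqU]
    have c1 : ContinuousAt (k ⟨q, hqU⟩) q :=
      ((hk ⟨q, hqU⟩ q (hpV ⟨q, hqU⟩)).mdifferentiableAt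
        ((hVo ⟨q, hqU⟩).mem_nhds (hpV ⟨q, hqU⟩))).continuousAt
    have c2 : ContinuousAt (k ⟨p, hp⟩) q :=
      ((hk ⟨p, hp⟩ q hq).mdifferentiableAt ((hVo ⟨p, hp⟩).mem_nhds hq)).continuousAt
    refine eq_of_frequently c1 c2 (hne q hqU) ?_
    filter_upwards [(hVo ⟨q, hqU⟩).mem_nhds (hpV ⟨q, hqU⟩), (hVo ⟨p, hp⟩).mem_nhds hq]
      with r hr1 hr2 hr0
    have e1 := hke ⟨q, hqU⟩ r hr1
    have e2 := hke ⟨p, hp⟩ r hr2
    rw [e1] at e2
    exact mul_left_cancel₀ hr0 e2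
  · intro q hq
    simp only [dif_pos hq]
    exact hke ⟨q, hq⟩ q (hpV ⟨q, hq⟩)

end Vale.Agent.P267.H209
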